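import Mathlib

namespace Vale.Agent.Results.P002.AbelianPi1

open Matrix Module MvPolynomial

/-- `ρ` is a complex point of `Rep_r` for the presentation
`Z^n = ⟨g_1,…,g_n | g_i g_j = g_j g_i⟩`: an `n`-tuple of commuting matrices of determinant one. -/
def IsRep {n r : ℕ} (ρ : Fin n → Matrix (Fin r) (Fin r) ℂ) : Prop :=
  (∀ i, (ρ i).det = 1) ∧ ∀ i j, ρ i * ρ j = ρ j * ρ i

/-- The value at the tuple `ρ` of a polynomial `P` in the `n r^2` matrix entries. -/
noncomputable def evalAt {n r : ℕ} (P : MvPolynomial (Fin n × Fin r × Fin r) ℂ)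
    (ρ : Fin n → Matrix (Fin r) (Fin r) ℂ) : ℂ :=
  MvPolynomial.eval (fun x => ρ x.1 x.2.1 x.2.2) P

/-- `P` restricts to a function on `Rep_r(ℂ)` invariant under simultaneous `SL_r(ℂ)` conjugation. -/
def IsInvariant {n r : ℕ} (P : MvPolynomial (Fin n × Fin r × Fin r) ℂ) : Prop :=
  ∀ ρ : Fin n → Matrix (Fin r) (Fin r) ℂ, IsRep ρ → ∀ g : Matrix (Fin r) (Fin r) ℂ, g.det = 1 →
    evalAt P (fun i => g * ρ i * g⁻¹) = evalAt P ρ

section torus

variable {n m : ℕ}

/-- the point of the torus with free coordinates `x` -/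
noncomputable def pt (x : Fin n × Fin m → ℂ) : Fin n × Fin (m + 1) → ℂ :=
  fun s => Fin.snoc (α := fun _ => ℂ) (fun j => x (s.1, j)) ((∏ j, x (s.1, j))⁻¹) s.2

theorem pt_castSucc (x : Fin n × Fin m → ℂ) (i : Fin n) (j : Fin m) :
    pt x (i, j.castSucc) = x (i, j) := by
  simp [pt]

theorem pt_last (x : Fin n × Fin m → ℂ) (i : Fin n) :
    pt x (i, Fin.last m) = (∏ j, x (i, j))⁻¹ := by
  simp [pt]

theorem clear_denominators (Q : MvPolynomial (Fin n × Fin (m + 1)) ℂ) :
    ∃ (D : ℕ) (Q' : MvPolynomial (Fin n × Fin m) ℂ), ∀ x : Fin n × Fin m → ℂ, (∀ s, x s ≠ 0) →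
      eval x Q' = (∏ s, x s) ^ D * eval (pt x) Q := by
  induction Q using MvPolynomial.induction_on with
  | C a => exact ⟨0, C a, fun x _ => by simp⟩
  | add p q hp hq =>
    obtain ⟨D1, Q1, h1⟩ := hp
    obtain ⟨D2, Q2, h2⟩ := hq
    refine ⟨D1 + D2, (∏ s, X s) ^ D2 * Q1 + (∏ s, X s) ^ D1 * Q2, fun x hx => ?_⟩
    simp only [map_add, map_mul, map_pow, map_prod, eval_X, h1 x hx, h2 x hx]
    ring
  | mul_X p s hp =>
    obtain ⟨D, Q', h⟩ := hp
    obtain ⟨i, k⟩ := s
    induction k using Fin.lastCases with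
    | cast j =>
      refine ⟨D, Q' * X (i, j), fun x hx => ?_⟩
      simp only [map_mul, eval_X, h x hx, pt_castSucc]
      ring
    | last =>
      refine ⟨D + 1, Q' * ∏ i' ∈ Finset.univ.erase i, ∏ j, X (i', j), fun x hx => ?_⟩
      simp only [map_mul, map_prod, eval_X, h x hx, pt_last]
      have h1 : (∏ s, x s) = (∏ j, x (i, j)) * ∏ i' ∈ Finset.univ.erase i, ∏ j, x (i', j) := by
        rw [Fintype.prod_prod_type]
        exact (Finset.mul_prod_erase Finset.univ (fun i' => ∏ j, x (i', j))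
          (Finset.mem_univ i)).symm
      have h2 : (∏ j, x (i, j)) ≠ 0 := Finset.prod_ne_zero_iff.2 (fun j _ => hx _)
      set A := ∏ j, x (i, j) with hA
      set B := ∏ i' ∈ Finset.univ.erase i, ∏ j, x (i', j) with hB
      rw [pow_succ]
      have h3 : (∏ s, x s) * A⁻¹ = B := by rw [h1]; field_simp
      calc (∏ s, x s) ^ D * eval (pt x) p * B
          = (∏ s, x s) ^ D * eval (pt x) p * ((∏ s, x s) * A⁻¹) := by rw [h3]
        _ = (∏ s, x s) ^ D * (∏ s, x s) * (eval (pt x) p * A⁻¹) := by ring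

theorem zpow_sum_eq {ι : Type*} (u : ℂ) (hu0 : u ≠ 0) (s : Finset ι) (f : ι → ℤ) :
    u ^ (∑ j ∈ s, f j) = ∏ j ∈ s, u ^ f j := by
  classical
  induction s using Finset.induction_on with
  | empty => simp
  | insert a s ha ih => rw [Finset.sum_insert ha, Finset.prod_insert ha, zpow_add₀ hu0, ih]

theorem torus_density_succ (u : ℂ) (hu0 : u ≠ 0) (hinj : Function.Injective (fun e : ℤ => u ^ e))
    (Q : MvPolynomial (Fin n × Fin (m + 1)) ℂ)
    (hQ : ∀ e : Fin n → Fin (m + 1) → ℤ, (∀ i, ∑ k, e i k = 0) →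
      eval (fun s => u ^ (e s.1 s.2)) Q = 0)
    (d : Fin n → Fin (m + 1) → ℂ) (hd : ∀ i, ∏ k, d i k = 1) :
    eval (fun s => d s.1 s.2) Q = 0 := by
  obtain ⟨D, Q', h⟩ := clear_denominators Q
  have hQ' : Q' = 0 := by
    apply MvPolynomial.funext_set (fun _ => Set.range (fun e : ℤ => u ^ e))
      (fun _ => Set.infinite_range_of_injective hinj)
    intro x hx
    have hx' : ∀ s, ∃ e : ℤ, u ^ e = x s := fun s => hx s (Set.mem_univ s)
    choose e' he' using hx'
    have hx0 : ∀ s, x s ≠ 0 := fun s => by rw [← he' s]; exact zpow_ne_zero _ hu0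
    rw [h x hx0, map_zero]
    let e : Fin n → Fin (m + 1) → ℤ := fun i k =>
      Fin.snoc (α := fun _ => ℤ) (fun j => e' (i, j)) (- ∑ j, e' (i, j)) k
    have : pt x = fun s : Fin n × Fin (m + 1) => u ^ (e s.1 s.2) := by
      funext s
      obtain ⟨i, k⟩ := s
      induction k using Fin.lastCases with
      | cast j => simp [pt_castSucc, he', e]
      | last =>
        simp only [pt_last, Fin.snoc_last, _root_.zpow_neg, e]
        congr 1
        rw [zpow_sum_eq u hu0]
        exact Finset.prod_congr rfl (fun j _ => (he' _).symm)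
    rw [this, hQ e (fun i => by simp [Fin.sum_univ_castSucc, e]), mul_zero]
  have hd0 : ∀ i k, d i k ≠ 0 := by
    intro i k h0
    have := hd i
    rw [Finset.prod_eq_zero (Finset.mem_univ k) h0] at this
    exact zero_ne_one this
  have key := h (fun s => d s.1 s.2.castSucc) (fun s => hd0 _ _)
  rw [hQ', map_zero] at key
  have hpt : pt (fun s : Fin n × Fin m => d s.1 s.2.castSucc) = fun s => d s.1 s.2 := by
    funext s
    obtain ⟨i, k⟩ := s
    induction k using Fin.lastCases with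
    | cast j => simp [pt_castSucc]
    | last =>
      simp only [pt_last]
      have := hd i
      rw [Fin.prod_univ_castSucc] at this
      exact inv_eq_of_mul_eq_one_right this
  rw [hpt] at key
  have hne : (∏ s : Fin n × Fin m, d s.1 s.2.castSucc) ^ D ≠ 0 :=
    pow_ne_zero _ (Finset.prod_ne_zero_iff.2 (fun s _ => hd0 _ _))
  exact (mul_eq_zero.1 key.symm).resolve_left hne

end torus

theorem torus_density {n r : ℕ} (u : ℂ) (hu0 : u ≠ 0)
    (hinj : Function.Injective (fun e : ℤ => u ^ e))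
    (Q : MvPolynomial (Fin n × Fin r) ℂ)
    (hQ : ∀ e : Fin n → Fin r → ℤ, (∀ i, ∑ k, e i k = 0) →
      eval (fun s => u ^ (e s.1 s.2)) Q = 0)
    (d : Fin n → Fin r → ℂ) (hd : ∀ i, ∏ k, d i k = 1) :
    eval (fun s => d s.1 s.2) Q = 0 := by
  cases r with
  | zero =>
    have h := hQ (fun _ _ => 0) (fun i => by simp)
    have he : (fun s : Fin n × Fin 0 => d s.1 s.2) = fun s => u ^ ((fun _ _ => 0 : Fin n → Fin 0 → ℤ) s.1 s.2) := by
      funext s
      exact s.2.elim0
    rw [he]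
    exact h
  | succ m => exact torus_density_succ u hu0 hinj Q hQ d hd

section diag

variable {n r : ℕ}

theorem exists_eigenbasis (T : Fin n → Module.End ℂ (Fin r → ℂ))
    (hcomm : ∀ i j, Commute (T i) (T j)) (hss : ∀ i, (T i).IsSemisimple) :
    ∃ (b : Basis (Fin r) ℂ (Fin r → ℂ)) (d : Fin n → Fin r → ℂ),
      ∀ i k, T i (b k) = d i k • b k := by
  classical
  let W : (Fin n → ℂ) → Submodule ℂ (Fin r → ℂ) := fun χ => ⨅ i, (T i).maxGenEigenspace (χ i)
  have htop : ⨆ χ, W χ = ⊤ :=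
    Module.End.iSup_iInf_maxGenEigenspace_eq_top_of_iSup_maxGenEigenspace_eq_top_of_commute T
      (fun i j _ => hcomm i j) (fun i => Module.End.iSup_maxGenEigenspace_eq_top (T i))
  have hind : iSupIndep W :=
    Module.End.independent_iInf_maxGenEigenspace_of_forall_mapsTo T
      (fun i j φ => Module.End.mapsTo_maxGenEigenspace_of_comm (hcomm j i) φ)
  have hint : DirectSum.IsInternal W :=
    DirectSum.isInternal_submodule_of_iSupIndep_of_iSup_eq_top hind htop
  let v : ∀ χ, Basis (Fin (finrank ℂ (W χ))) ℂ (W χ) := fun χ => Module.finBasis ℂ (W χ)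
  let b0 := hint.collectedBasis v
  have : Finite (Σ χ, Fin (finrank ℂ (W χ))) := Module.Finite.finite_basis b0
  have : Fintype (Σ χ, Fin (finrank ℂ (W χ))) := Fintype.ofFinite _
  have hcard : Fintype.card (Σ χ, Fin (finrank ℂ (W χ))) = r := by
    rw [← Module.finrank_eq_card_basis b0]
    simp
  let e := Fintype.equivFinOfCardEq hcard
  refine ⟨b0.reindex e, fun i k => (e.symm k).1 i, fun i k => ?_⟩
  have hmem : b0 (e.symm k) ∈ W (e.symm k).1 := hint.collectedBasis_mem v _
  have h1 : b0 (e.symm k) ∈ (T i).maxGenEigenspace ((e.symm k).1 i) :=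
    (Submodule.mem_iInf _).1 hmem i
  rw [(hss i).isFinitelySemisimple.maxGenEigenspace_eq_eigenspace, Module.End.mem_eigenspace_iff]
    at h1
  simpa using h1

theorem exists_diag (ρ : Fin n → Matrix (Fin r) (Fin r) ℂ)
    (hcomm : ∀ i j, ρ i * ρ j = ρ j * ρ i)
    (hss : ∀ i, Module.End.IsSemisimple (Matrix.toLin' (ρ i))) :
    ∃ (g : Matrix (Fin r) (Fin r) ℂ) (d : Fin n → Fin r → ℂ), IsUnit g.det ∧
      ∀ i, ρ i = g * Matrix.diagonal (d i) * g⁻¹ := by
  obtain ⟨b, d, hb⟩ := exists_eigenbasis (fun i => Matrix.toLin' (ρ i))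
    (fun i j => by
      show Matrix.toLin' (ρ i) * Matrix.toLin' (ρ j) = Matrix.toLin' (ρ j) * Matrix.toLin' (ρ i)
      rw [Module.End.mul_eq_comp, Module.End.mul_eq_comp, ← Matrix.toLin'_mul,
        ← Matrix.toLin'_mul, hcomm i j]) hss
  let g : Matrix (Fin r) (Fin r) ℂ := (Pi.basisFun ℂ (Fin r)).toMatrix b
  have hg : IsUnit g.det := by
    have h1 : g * b.toMatrix (Pi.basisFun ℂ (Fin r)) = 1 :=
      Basis.toMatrix_mul_toMatrix_flip _ _
    have h2 := congrArg Matrix.det h1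
    rw [Matrix.det_mul, Matrix.det_one] at h2
    exact IsUnit.of_mul_eq_one _ h2
  refine ⟨g, d, hg, fun i => ?_⟩
  have h1 : ρ i * g = g * Matrix.diagonal (d i) := by
    ext a k
    rw [Matrix.mul_diagonal]
    have h2 := congrFun (hb i k) a
    simp only [Matrix.toLin'_apply, Pi.smul_apply, smul_eq_mul] at h2
    have h3 : (ρ i * g) a k = (ρ i *ᵥ b k) a := by
      simp [Matrix.mul_apply, Matrix.mulVec, dotProduct, g, Basis.toMatrix_apply]
    rw [h3, h2]
    simp [g, Basis.toMatrix_apply, mul_comm]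
  rw [← h1, Matrix.mul_assoc, Matrix.mul_nonsing_inv _ hg, Matrix.mul_one]


theorem exists_diag_det_one (ρ : Fin n → Matrix (Fin (r + 1)) (Fin (r + 1)) ℂ)
    (hcomm : ∀ i j, ρ i * ρ j = ρ j * ρ i)
    (hss : ∀ i, Module.End.IsSemisimple (Matrix.toLin' (ρ i))) :
    ∃ (g : Matrix (Fin (r + 1)) (Fin (r + 1)) ℂ) (d : Fin n → Fin (r + 1) → ℂ), g.det = 1 ∧
      ∀ i, ρ i = g * Matrix.diagonal (d i) * g⁻¹ := by
  obtain ⟨g, d, hg, h⟩ := exists_diag ρ hcomm hss
  obtain ⟨c, hc⟩ := IsAlgClosed.exists_pow_nat_eq g.det (Nat.succ_pos r)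
  have hdet0 : g.det ≠ 0 := hg.ne_zero
  have hc0 : c ≠ 0 := by
    rintro rfl
    rw [zero_pow (Nat.succ_ne_zero r)] at hc
    exact hdet0 hc.symm
  have hinv : (c⁻¹ • g)⁻¹ = c • g⁻¹ := by
    apply Matrix.inv_eq_right_inv
    rw [Matrix.smul_mul, Matrix.mul_smul, smul_smul, inv_mul_cancel₀ hc0, one_smul,
      Matrix.mul_nonsing_inv _ hg]
  refine ⟨c⁻¹ • g, d, ?_, fun i => ?_⟩
  · rw [Matrix.det_smul, Fintype.card_fin, inv_pow, hc, inv_mul_cancel₀ hdet0]
  · rw [hinv, h i, Matrix.smul_mul, Matrix.smul_mul, Matrix.mul_smul, smul_smul,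
      inv_mul_cancel₀ hc0, one_smul]

end diag

/-- the polynomial on diagonal tuples induced by `P` -/
noncomputable def diagPoly {n r : ℕ} (P : MvPolynomial (Fin n × Fin r × Fin r) ℂ) :
    MvPolynomial (Fin n × Fin r) ℂ :=
  bind₁ (fun x : Fin n × Fin r × Fin r => if x.2.1 = x.2.2 then X (x.1, x.2.1) else 0) P

theorem eval_diagPoly {n r : ℕ} (P : MvPolynomial (Fin n × Fin r × Fin r) ℂ)
    (d : Fin n → Fin r → ℂ) :
    eval (fun s => d s.1 s.2) (diagPoly P) = evalAt P (fun i => Matrix.diagonal (d i)) := by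
  unfold diagPoly evalAt
  have h := eval₂Hom_bind₁ (RingHom.id ℂ) (fun s : Fin n × Fin r => d s.1 s.2)
    (fun x : Fin n × Fin r × Fin r => if x.2.1 = x.2.2 then X (x.1, x.2.1) else 0) P
  have h' : eval (fun s : Fin n × Fin r => d s.1 s.2) (bind₁ (fun x : Fin n × Fin r × Fin r =>
      if x.2.1 = x.2.2 then X (x.1, x.2.1) else 0) P) = _ := h
  rw [h']
  show eval _ P = eval _ P
  congr 2
  funext x
  by_cases hx : x.2.1 = x.2.2
  · simp [hx]
  · simp [hx]

theorem isRep_diagonal {n r : ℕ} (d : Fin n → Fin r → ℂ) (hd : ∀ i, ∏ k, d i k = 1) :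
    IsRep (fun i => Matrix.diagonal (d i)) := by
  refine ⟨fun i => by rw [Matrix.det_diagonal, hd i], fun i j => ?_⟩
  rw [Matrix.diagonal_mul_diagonal, Matrix.diagonal_mul_diagonal]
  congr 1
  funext k
  exact mul_comm _ _

/-- the square root of two as a complex number -/
noncomputable def w : ℂ := ((Real.sqrt 2 : ℝ) : ℂ)

theorem w_sq : w ^ 2 = 2 := by
  unfold w
  rw [← Complex.ofReal_pow, Real.sq_sqrt (by norm_num)]
  norm_num

theorem w_integral : IsIntegral ℤ w := by
  apply IsIntegral.of_pow (n := 2) (by norm_num)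
  rw [w_sq]
  exact_mod_cast (isIntegral_natCast (R := ℤ) (B := ℂ) 2)

theorem u_mul : (1 + w) * (w - 1) = 1 := by
  have := w_sq
  linear_combination this

theorem u_ne_zero : (1 + w) ≠ 0 := left_ne_zero_of_mul_eq_one u_mul

theorem u_inv : (1 + w)⁻¹ = w - 1 := inv_eq_of_mul_eq_one_right u_mul

theorem u_zpow_integral (e : ℤ) : IsIntegral ℤ ((1 + w) ^ e) := by
  obtain ⟨k, rfl | rfl⟩ := e.eq_nat_or_neg
  · rw [zpow_natCast]
    exact (isIntegral_one.add w_integral).pow k
  · rw [_root_.zpow_neg, zpow_natCast, ← inv_pow, u_inv]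
    exact (w_integral.sub isIntegral_one).pow k

theorem u_zpow_injective : Function.Injective (fun e : ℤ => (1 + w) ^ e) := by
  have h1 : (0 : ℝ) < 1 + Real.sqrt 2 := by positivity
  have h2 : (1 : ℝ) + Real.sqrt 2 ≠ 1 := by
    have : 0 < Real.sqrt 2 := Real.sqrt_pos.2 (by norm_num)
    linarith
  intro a b hab
  apply zpow_right_injective₀ h1 h2
  apply Complex.ofReal_injective
  simp only [Complex.ofReal_zpow, Complex.ofReal_add, Complex.ofReal_one]
  exact hab

/-- **Potential density for free abelian fundamental groups, in every rank.** -/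
theorem result : ∃ L : IntermediateField ℚ ℂ, FiniteDimensional ℚ L ∧
    ∀ (n r : ℕ) (P : MvPolynomial (Fin n × Fin r × Fin r) ℂ), IsInvariant P →
      (∀ ρ : Fin n → Matrix (Fin r) (Fin r) ℂ, IsRep ρ →
        (∀ i a b, ρ i a b ∈ L ∧ IsIntegral ℤ (ρ i a b)) → evalAt P ρ = 0) →
      ∀ ρ : Fin n → Matrix (Fin r) (Fin r) ℂ, IsRep ρ →
        (∀ i, Module.End.IsSemisimple (Matrix.toLin' (ρ i))) → evalAt P ρ = 0 := by
  refine ⟨IntermediateField.adjoin ℚ {w},
    IntermediateField.adjoin.finiteDimensional w_integral.tower_top, ?_⟩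
  intro n r P hinv hint ρ hρ hss
  cases r with
  | zero => exact hint ρ hρ (fun i a b => a.elim0)
  | succ r =>
    obtain ⟨g, d, hg, hgd⟩ := exists_diag_det_one ρ hρ.2 hss
    have hd : ∀ i, ∏ k, d i k = 1 := by
      intro i
      have h1 := hρ.1 i
      rw [hgd i, Matrix.det_mul, Matrix.det_mul, Matrix.det_diagonal, hg,
        Matrix.det_nonsing_inv, hg] at h1
      simpa using h1
    have h1 : evalAt P ρ = evalAt P (fun i => Matrix.diagonal (d i)) := by
      have := hinv _ (isRep_diagonal d hd) g hg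
      rw [← this]
      congr 1
      funext i
      exact hgd i
    rw [h1, ← eval_diagPoly]
    apply torus_density (1 + w) u_ne_zero u_zpow_injective _ _ d hd
    intro e he
    have h2 := eval_diagPoly P (fun i k => (1 + w) ^ e i k)
    rw [h2]
    apply hint
    · apply isRep_diagonal
      intro i
      rw [← zpow_sum_eq _ u_ne_zero, he i, zpow_zero]
    · intro i a b
      by_cases hab : a = b
      · subst hab
        rw [Matrix.diagonal_apply_eq]
        refine ⟨zpow_mem (add_mem (one_mem _) (IntermediateField.mem_adjoin_simple_self ℚ w)) _,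
          u_zpow_integral _⟩
      · rw [Matrix.diagonal_apply_ne _ hab]
        exact ⟨zero_mem _, isIntegral_zero⟩

end Vale.Agent.Results.P002.AbelianPi1
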